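import Vale.Agent.P245.Defs

/-!
P245 (helper887): from a Poincaré inequality to the modified logarithmic Sobolev inequality of
Bobkov and Ledoux, for `e^G` with `G` smooth, compactly supported and `lam`-Lipschitz.
-/

open MeasureTheory Filter Topology
open scoped ContDiff

namespace Vale.Agent.P245.H887

variable {n : ℕ} {μ : Measure (EuclideanSpace ℝ (Fin n))} {κ lam : ℝ}

theorem norm_gradient (f : EuclideanSpace ℝ (Fin n) → ℝ) (x : EuclideanSpace ℝ (Fin n)) :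
    ‖gradient f x‖ = ‖fderiv ℝ f x‖ := by
  unfold gradient
  exact (InnerProductSpace.toDual ℝ (EuclideanSpace ℝ (Fin n))).symm.norm_map _

theorem exists_bd {f : EuclideanSpace ℝ (Fin n) → ℝ} (hf : Continuous f)
    (hc : HasCompactSupport f) : ∃ M, 0 ≤ M ∧ ∀ x, |f x| ≤ M := by
  obtain ⟨M, hM⟩ := hf.bounded_above_of_compact_support hc
  exact ⟨|M|, abs_nonneg _, fun x => by
    have := hM x; rw [Real.norm_eq_abs] at this; exact this.trans (le_abs_self M)⟩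

theorem norm_gradient_comp {φ : ℝ → ℝ} {G : EuclideanSpace ℝ (Fin n) → ℝ}
    (hφ : ContDiff ℝ ∞ φ) (hG : ContDiff ℝ ∞ G) (x : EuclideanSpace ℝ (Fin n)) :
    ‖gradient (fun y => φ (G y)) x‖ = |deriv φ (G x)| * ‖gradient G x‖ := by
  have h1 : HasDerivAt φ (deriv φ (G x)) (G x) :=
    (hφ.differentiable (by simp)).differentiableAt.hasDerivAt
  have h2 : HasFDerivAt G (fderiv ℝ G x) x :=
    (hG.differentiable (by simp)).differentiableAt.hasFDerivAt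
  have h3 := h1.comp_hasFDerivAt x h2
  have h4 : fderiv ℝ (fun y => φ (G y)) x = deriv φ (G x) • fderiv ℝ G x := h3.fderiv
  rw [norm_gradient, norm_gradient, h4, norm_smul, Real.norm_eq_abs]

theorem grad_cont {G : EuclideanSpace ℝ (Fin n) → ℝ} (hG : ContDiff ℝ ∞ G) :
    Continuous fun x => ‖gradient G x‖ := by
  have h1 : Continuous (fderiv ℝ G) := hG.continuous_fderiv (by simp)
  have : (fun x => ‖gradient G x‖) = fun x => ‖fderiv ℝ G x‖ := funext fun x => norm_gradient G x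
  rw [this]; exact h1.norm

theorem grad_cs {G : EuclideanSpace ℝ (Fin n) → ℝ} (hG : HasCompactSupport G) :
    HasCompactSupport fun x => ‖gradient G x‖ := by
  have h1 : HasCompactSupport (fderiv ℝ G) := hG.fderiv ℝ
  have : (fun x => ‖gradient G x‖) = fun x => ‖fderiv ℝ G x‖ := funext fun x => norm_gradient G x
  rw [this]; exact h1.norm

section
variable [IsProbabilityMeasure μ]

theorem int_of_bdd {g : EuclideanSpace ℝ (Fin n) → ℝ} (hg : Continuous g) {M : ℝ}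
    (hM : ∀ x, |g x| ≤ M) : Integrable g μ :=
  Integrable.mono' (integrable_const M) hg.aestronglyMeasurable
    (Eventually.of_forall fun x => by rw [Real.norm_eq_abs]; exact hM x)

/-- a continuous function of a compactly supported continuous function is integrable -/
theorem int_comp {G : EuclideanSpace ℝ (Fin n) → ℝ} (hG : Continuous G) (hc : HasCompactSupport G)
    {φ : ℝ → ℝ} (hφ : Continuous φ) : Integrable (fun x => φ (G x)) μ := by
  obtain ⟨M, hM0, hM⟩ := exists_bd hG hc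
  obtain ⟨B, hB⟩ := (isCompact_Icc (a := -M) (b := M)).exists_bound_of_continuousOn hφ.continuousOn
  exact int_of_bdd (hφ.comp hG) (M := B) fun x => by
    have := hB (G x) (abs_le.mp (hM x))
    rwa [Real.norm_eq_abs] at this

/-- `φ (G) ‖DG‖²` is integrable -/
theorem int_comp_grad {G : EuclideanSpace ℝ (Fin n) → ℝ} (hG : ContDiff ℝ ∞ G)
    (hc : HasCompactSupport G) {φ : ℝ → ℝ} (hφ : Continuous φ) :
    Integrable (fun x => φ (G x) * ‖gradient G x‖ ^ 2) μ := by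
  have h1 : Continuous fun x => φ (G x) * ‖gradient G x‖ ^ 2 :=
    (hφ.comp hG.continuous).mul ((grad_cont hG).pow 2)
  have h2 : HasCompactSupport fun x => φ (G x) * ‖gradient G x‖ ^ 2 := by
    have h3 : HasCompactSupport fun x => ‖gradient G x‖ ^ 2 :=
      (grad_cs hc).comp_left (g := fun y : ℝ => y ^ 2) (by simp)
    exact h3.mul_left
  exact h1.integrable_of_hasCompactSupport h2

theorem var_shift {F : EuclideanSpace ℝ (Fin n) → ℝ} (h1 : Integrable F μ)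
    (h2 : Integrable (fun x => F x ^ 2) μ) (k : ℝ) :
    (∫ x, (F x - k) ^ 2 ∂μ) - (∫ x, (F x - k) ∂μ) ^ 2 = (∫ x, F x ^ 2 ∂μ) - (∫ x, F x ∂μ) ^ 2 := by
  have e1 : ∫ x, (F x - k) ∂μ = (∫ x, F x ∂μ) - k := by
    rw [integral_sub h1 (integrable_const _)]; simp
  have e2 : ∫ x, (F x - k) ^ 2 ∂μ = (∫ x, F x ^ 2 ∂μ) - 2 * k * (∫ x, F x ∂μ) + k ^ 2 := by
    have : ∀ x, (F x - k) ^ 2 = F x ^ 2 - 2 * k * F x + k ^ 2 := fun x => by ring
    have j1 : Integrable (fun x => 2 * k * F x) μ := h1.const_mul _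
    have j2 : Integrable (fun x => F x ^ 2 - 2 * k * F x) μ := h2.sub j1
    have j3 : ∫ x, (F x - k) ^ 2 ∂μ = ∫ x, (F x ^ 2 - 2 * k * F x + k ^ 2) ∂μ :=
      integral_congr_ae (Eventually.of_forall this)
    rw [j3, integral_add j2 (integrable_const _), integral_sub h2 j1, integral_const_mul]
    simp
  rw [e1, e2]; ring

/-- Poincaré for `φ ∘ G` -/
theorem poin_comp (hP : ∀ u : EuclideanSpace ℝ (Fin n) → ℝ, ContDiff ℝ ∞ u → HasCompactSupport u →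
      (∫ x, u x ^ 2 ∂μ) - (∫ x, u x ∂μ) ^ 2 ≤ κ * ∫ x, ‖gradient u x‖ ^ 2 ∂μ)
    {G : EuclideanSpace ℝ (Fin n) → ℝ} (hG : ContDiff ℝ ∞ G) (hc : HasCompactSupport G)
    {φ : ℝ → ℝ} (hφ : ContDiff ℝ ∞ φ) :
    (∫ x, φ (G x) ^ 2 ∂μ) - (∫ x, φ (G x) ∂μ) ^ 2 ≤
      κ * ∫ x, (deriv φ (G x)) ^ 2 * ‖gradient G x‖ ^ 2 ∂μ := by
  have h1 := hP (fun x => φ (G x) - φ 0) ((hφ.comp hG).sub contDiff_const)
    (hc.comp_left (g := fun s : ℝ => φ s - φ 0) (by simp))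
  have i1 : Integrable (fun x => φ (G x)) μ := int_comp hG.continuous hc hφ.continuous
  have i2 : Integrable (fun x => φ (G x) ^ 2) μ :=
    int_comp hG.continuous hc (φ := fun s => φ s ^ 2) (hφ.continuous.pow 2)
  rw [var_shift i1 i2] at h1
  refine h1.trans (le_of_eq ?_)
  congr 1
  refine integral_congr_ae (Eventually.of_forall fun x => ?_)
  have h2 : ContDiff ℝ ∞ fun s => φ s - φ 0 := hφ.sub contDiff_const
  have h3 := norm_gradient_comp h2 hG x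
  have h4 : deriv (fun s => φ s - φ 0) (G x) = deriv φ (G x) := by simp
  rw [h4] at h3
  show ‖gradient (fun y => φ (G y) - φ 0) x‖ ^ 2 = _
  rw [h3, mul_pow, sq_abs]

omit [IsProbabilityMeasure μ] in
/-- Cauchy-Schwarz -/
theorem cs {f g : EuclideanSpace ℝ (Fin n) → ℝ} (h1 : Integrable (fun x => f x ^ 2) μ)
    (h2 : Integrable (fun x => g x ^ 2) μ) (h3 : Integrable (fun x => f x * g x) μ) :
    (∫ x, f x * g x ∂μ) ^ 2 ≤ (∫ x, f x ^ 2 ∂μ) * (∫ x, g x ^ 2 ∂μ) := by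
  have key : ∀ t : ℝ, 0 ≤ (∫ x, f x ^ 2 ∂μ) * (t * t) + (2 * ∫ x, f x * g x ∂μ) * t +
      ∫ x, g x ^ 2 ∂μ := by
    intro t
    have j1 : 0 ≤ ∫ x, (t * f x + g x) ^ 2 ∂μ := integral_nonneg fun x => sq_nonneg _
    have j2 : ∫ x, (t * f x + g x) ^ 2 ∂μ =
        ∫ x, ((t * t) * f x ^ 2 + (2 * t) * (f x * g x) + g x ^ 2) ∂μ :=
      integral_congr_ae (Eventually.of_forall fun x => by ring)
    have k1 : Integrable (fun x => (t * t) * f x ^ 2) μ := h1.const_mul _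
    have k2 : Integrable (fun x => (2 * t) * (f x * g x)) μ := h3.const_mul _
    have k3 : Integrable (fun x => (t * t) * f x ^ 2 + (2 * t) * (f x * g x)) μ := k1.add k2
    rw [j2, integral_add k3 h2, integral_add k1 k2, integral_const_mul, integral_const_mul] at j1
    linarith
  have := discrim_le_zero key
  rw [discrim] at this
  nlinarith

theorem pt1 (u : ℝ) : u * Real.exp u - Real.exp u + 1 ≤ u ^ 2 * (1 + Real.exp u) := by
  have h0 := Real.exp_pos u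
  have h1 := Real.add_one_le_exp u
  rcases le_or_gt u 0 with hu | hu
  · have : (1 + u) * (1 - u) ≤ Real.exp u * (1 - u) :=
      mul_le_mul_of_nonneg_right (by linarith) (by linarith)
    have h2 : 0 ≤ u ^ 2 * Real.exp u := by positivity
    nlinarith
  · -- `exp u * (u - 1) + 1 ≤ u² exp u`
    have h2 : 1 ≤ Real.exp u * 1 := by
      rw [mul_one]; exact Real.one_le_exp hu.le
    have h3 : Real.exp u * (u - 1) + 1 ≤ u ^ 2 * Real.exp u + u ^ 2 := by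
      rcases le_or_gt u 1 with h4 | h4
      · have : (1 + u) * (1 - u) ≤ Real.exp u * (1 - u) :=
          mul_le_mul_of_nonneg_right (by linarith) (by linarith)
        have h5 : 0 ≤ u ^ 2 * Real.exp u := by positivity
        nlinarith
      · have h5 : Real.exp u * (u - 1) ≤ Real.exp u * (u ^ 2) :=
          mul_le_mul_of_nonneg_left (by nlinarith) h0.le
        nlinarith
    linarith


omit [IsProbabilityMeasure μ] in
theorem pt2 {u d lam E : ℝ} (hd0 : 0 ≤ d) (hdl : d ≤ lam) :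
    (1 * E + u * (E * (1 / 2))) ^ 2 * d ^ 2 ≤ 2 * (E ^ 2 * d ^ 2) + lam ^ 2 / 2 * (u ^ 2 * E ^ 2) := by
  have hd2 : d ^ 2 ≤ lam ^ 2 := pow_le_pow_left₀ hd0 hdl 2
  have e1 : (1 * E + u * (E * (1 / 2))) ^ 2 * d ^ 2 = (E ^ 2 * d ^ 2) * (1 + u / 2) ^ 2 := by
    ring
  have e2 : (1 + u / 2) ^ 2 ≤ 2 + u ^ 2 / 2 := by nlinarith [sq_nonneg (1 - u / 2)]
  have e3 : (E ^ 2 * d ^ 2) * (1 + u / 2) ^ 2 ≤ (E ^ 2 * d ^ 2) * (2 + u ^ 2 / 2) :=
    mul_le_mul_of_nonneg_left e2 (by positivity)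
  have e4 : (E ^ 2 * u ^ 2 / 2) * d ^ 2 ≤ (E ^ 2 * u ^ 2 / 2) * lam ^ 2 :=
    mul_le_mul_of_nonneg_left hd2 (by positivity)
  have e5 : (E ^ 2 * d ^ 2) * (2 + u ^ 2 / 2) = 2 * (E ^ 2 * d ^ 2) + (E ^ 2 * u ^ 2 / 2) * d ^ 2 := by
    ring
  have e6 : lam ^ 2 / 2 * (u ^ 2 * E ^ 2) = (E ^ 2 * u ^ 2 / 2) * lam ^ 2 := by ring
  rw [e1, e6]
  linarith

omit [IsProbabilityMeasure μ] in
theorem pt3 {u d lam : ℝ} (hd0 : 0 ≤ d) (hdl : d ≤ lam) :
    d ^ 2 ≤ Real.exp u * d ^ 2 + ((1 / 4) * d ^ 2 + lam ^ 2 * u ^ 2) := by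
  have e1 := Real.add_one_le_exp u
  have e2 : d ^ 2 * (u + 1) ≤ d ^ 2 * Real.exp u := mul_le_mul_of_nonneg_left e1 (sq_nonneg d)
  have e3 : -(d ^ 2 * u) ≤ d * lam * |u| := by
    have q1 : -(d ^ 2 * u) ≤ d ^ 2 * |u| := by
      have := mul_le_mul_of_nonneg_left (neg_le_abs u) (sq_nonneg d)
      linarith
    have q2 : d ^ 2 * |u| ≤ d * lam * |u| :=
      mul_le_mul_of_nonneg_right (by nlinarith) (abs_nonneg u)
    linarith
  have e4 : d * lam * |u| ≤ (1 / 4) * d ^ 2 + lam ^ 2 * u ^ 2 := by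
    have := sq_nonneg (d / 2 - lam * |u|)
    have q : |u| ^ 2 = u ^ 2 := sq_abs u
    have q2 : (d / 2 - lam * |u|) ^ 2 = d ^ 2 / 4 - d * lam * |u| + lam ^ 2 * |u| ^ 2 := by ring
    rw [q2, q] at this
    linarith
  linarith

theorem exp_sq (s : ℝ) : Real.exp s = Real.exp (s / 2) ^ 2 := by
  rw [← Real.exp_nat_mul]; congr 1; push_cast; ring

/-- (c) -/
theorem bl_c {G : EuclideanSpace ℝ (Fin n) → ℝ} {m : ℝ}
    (hlam0 : 0 ≤ lam) (hkl : κ * lam ^ 2 ≤ 1 / 4)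
    (hL : ∀ x, ‖gradient G x‖ ≤ lam)
    (ip0 : Integrable (fun x => ‖gradient G x‖ ^ 2) μ)
    (ip1 : Integrable (fun x => Real.exp (G x - m) * ‖gradient G x‖ ^ 2) μ)
    (iA0 : Integrable (fun x => (G x - m) ^ 2) μ)
    (ha : ∫ x, (G x - m) ^ 2 ∂μ ≤ κ * ∫ x, ‖gradient G x‖ ^ 2 ∂μ) :
    ∫ x, ‖gradient G x‖ ^ 2 ∂μ ≤ 2 * ∫ x, Real.exp (G x - m) * ‖gradient G x‖ ^ 2 ∂μ := by
  obtain ⟨p0, hp0⟩ : ∃ p, p = ∫ x, ‖gradient G x‖ ^ 2 ∂μ := ⟨_, rfl⟩
  obtain ⟨p1, hp1⟩ : ∃ p, p = ∫ x, Real.exp (G x - m) * ‖gradient G x‖ ^ 2 ∂μ := ⟨_, rfl⟩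
  obtain ⟨A0, hA0⟩ : ∃ p, p = ∫ x, (G x - m) ^ 2 ∂μ := ⟨_, rfl⟩
  have p0n : 0 ≤ p0 := by rw [hp0]; exact integral_nonneg fun x => by positivity
  have j1 : Integrable (fun x => (1 / 4) * ‖gradient G x‖ ^ 2) μ := ip0.const_mul _
  have j2 : Integrable (fun x => lam ^ 2 * (G x - m) ^ 2) μ := iA0.const_mul _
  have j3 : Integrable (fun x => (1 / 4) * ‖gradient G x‖ ^ 2 + lam ^ 2 * (G x - m) ^ 2) μ :=
    j1.add j2
  have i1 : Integrable (fun x => Real.exp (G x - m) * ‖gradient G x‖ ^ 2 +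
      ((1 / 4) * ‖gradient G x‖ ^ 2 + lam ^ 2 * (G x - m) ^ 2)) μ := ip1.add j3
  have h1 : p0 ≤ ∫ x, (Real.exp (G x - m) * ‖gradient G x‖ ^ 2 +
      ((1 / 4) * ‖gradient G x‖ ^ 2 + lam ^ 2 * (G x - m) ^ 2)) ∂μ := by
    rw [hp0]
    exact integral_mono ip0 i1 fun x => pt3 (norm_nonneg _) (hL x)
  rw [integral_add ip1 j3, integral_add j1 j2, integral_const_mul, integral_const_mul,
    ← hp1, ← hp0, ← hA0] at h1
  rw [← hA0, ← hp0] at ha
  rw [← hp0, ← hp1]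
  have h2 : lam ^ 2 * A0 ≤ (1 / 4) * p0 := by
    have q1 : lam ^ 2 * A0 ≤ lam ^ 2 * (κ * p0) := mul_le_mul_of_nonneg_left ha (sq_nonneg _)
    have q2 : κ * lam ^ 2 * p0 ≤ 1 / 4 * p0 := mul_le_mul_of_nonneg_right hkl p0n
    have q3 : lam ^ 2 * (κ * p0) = κ * lam ^ 2 * p0 := by ring
    linarith
  linarith

/-- (b1) -/
theorem bl_b1 (hP : ∀ u : EuclideanSpace ℝ (Fin n) → ℝ, ContDiff ℝ ∞ u → HasCompactSupport u →
      (∫ x, u x ^ 2 ∂μ) - (∫ x, u x ∂μ) ^ 2 ≤ κ * ∫ x, ‖gradient u x‖ ^ 2 ∂μ)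
    {G : EuclideanSpace ℝ (Fin n) → ℝ} (hG : ContDiff ℝ ∞ G) (hc : HasCompactSupport G) (m : ℝ) :
    ∫ x, (Real.exp ((G x - m) / 2)) ^ 2 ∂μ - (∫ x, Real.exp ((G x - m) / 2) ∂μ) ^ 2 ≤
      κ * ((1 / 4) * ∫ x, Real.exp (G x - m) * ‖gradient G x‖ ^ 2 ∂μ) := by
  have h1 := poin_comp hP hG hc (φ := fun s => Real.exp ((s - m) / 2)) (by fun_prop)
  refine h1.trans (le_of_eq ?_)
  congr 1
  rw [← integral_const_mul]
  refine integral_congr_ae (Eventually.of_forall fun x => ?_)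
  have h2 : HasDerivAt (fun s => Real.exp ((s - m) / 2)) (Real.exp ((G x - m) / 2) * (1 / 2))
      (G x) := by
    have := ((hasDerivAt_id (G x)).sub_const m).div_const 2
    exact this.exp
  show deriv (fun s => Real.exp ((s - m) / 2)) (G x) ^ 2 * ‖gradient G x‖ ^ 2 =
    1 / 4 * (Real.exp (G x - m) * ‖gradient G x‖ ^ 2)
  rw [h2.deriv, exp_sq (G x - m)]
  ring

/-- (b2) -/
theorem bl_b2 (hP : ∀ u : EuclideanSpace ℝ (Fin n) → ℝ, ContDiff ℝ ∞ u → HasCompactSupport u →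
      (∫ x, u x ^ 2 ∂μ) - (∫ x, u x ∂μ) ^ 2 ≤ κ * ∫ x, ‖gradient u x‖ ^ 2 ∂μ)
    (hκ : 0 ≤ κ)
    {G : EuclideanSpace ℝ (Fin n) → ℝ} (hG : ContDiff ℝ ∞ G) (hc : HasCompactSupport G) {m : ℝ}
    (hU : ∫ x, (G x - m) ∂μ = 0)
    (ha : ∫ x, (G x - m) ^ 2 ∂μ ≤ κ * ∫ x, ‖gradient G x‖ ^ 2 ∂μ) :
    (∫ x, (G x - m) * Real.exp ((G x - m) / 2) ∂μ) ^ 2 ≤
      (κ * ∫ x, ‖gradient G x‖ ^ 2 ∂μ) *
        (κ * ((1 / 4) * ∫ x, Real.exp (G x - m) * ‖gradient G x‖ ^ 2 ∂μ)) := by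
  have hGc := hG.continuous
  have I : ∀ {φ : ℝ → ℝ}, Continuous φ → Integrable (fun x => φ (G x)) μ := fun h =>
    int_comp hGc hc h
  obtain ⟨c, hcdef⟩ : ∃ c, c = ∫ x, Real.exp ((G x - m) / 2) ∂μ := ⟨_, rfl⟩
  have iA0 : Integrable (fun x => (G x - m) ^ 2) μ := I (φ := fun s => (s - m) ^ 2) (by fun_prop)
  have i1 : Integrable (fun x => Real.exp ((G x - m) / 2)) μ :=
    I (φ := fun s => Real.exp ((s - m) / 2)) (by fun_prop)
  have i2 : Integrable (fun x => Real.exp ((G x - m) / 2) ^ 2) μ :=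
    I (φ := fun s => Real.exp ((s - m) / 2) ^ 2) (by fun_prop)
  have i3 : Integrable (fun x => (Real.exp ((G x - m) / 2) - c) ^ 2) μ :=
    I (φ := fun s => (Real.exp ((s - m) / 2) - c) ^ 2) (by fun_prop)
  have i4 : Integrable (fun x => (G x - m) * (Real.exp ((G x - m) / 2) - c)) μ :=
    I (φ := fun s => (s - m) * (Real.exp ((s - m) / 2) - c)) (by fun_prop)
  have i5 : Integrable (fun x => (G x - m) * Real.exp ((G x - m) / 2)) μ :=
    I (φ := fun s => (s - m) * Real.exp ((s - m) / 2)) (by fun_prop)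
  have i6 : Integrable (fun x => c * (G x - m)) μ :=
    I (φ := fun s => c * (s - m)) (by fun_prop)
  have h1 := cs (μ := μ) (f := fun x => G x - m) (g := fun x => Real.exp ((G x - m) / 2) - c)
    iA0 i3 i4
  have h2 : ∫ x, (G x - m) * (Real.exp ((G x - m) / 2) - c) ∂μ =
      ∫ x, (G x - m) * Real.exp ((G x - m) / 2) ∂μ := by
    have : ∫ x, (G x - m) * (Real.exp ((G x - m) / 2) - c) ∂μ =
        ∫ x, ((G x - m) * Real.exp ((G x - m) / 2) - c * (G x - m)) ∂μ :=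
      integral_congr_ae (Eventually.of_forall fun x => by
        show (G x - m) * (Real.exp ((G x - m) / 2) - c) =
          (G x - m) * Real.exp ((G x - m) / 2) - c * (G x - m)
        ring)
    rw [this, integral_sub i5 i6, integral_const_mul, hU]; ring
  have h3 : ∫ x, (Real.exp ((G x - m) / 2) - c) ^ 2 ∂μ ≤
      κ * ((1 / 4) * ∫ x, Real.exp (G x - m) * ‖gradient G x‖ ^ 2 ∂μ) := by
    have h4 := var_shift i1 i2 c
    have h5 : ∫ x, (Real.exp ((G x - m) / 2) - c) ∂μ = 0 := by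
      rw [integral_sub i1 (integrable_const _), ← hcdef]; simp
    have h6 := bl_b1 hP hG hc m
    rw [h5] at h4
    linarith
  have h1' : (∫ x, (G x - m) * (Real.exp ((G x - m) / 2) - c) ∂μ) ^ 2 ≤
      (∫ x, (G x - m) ^ 2 ∂μ) * ∫ x, (Real.exp ((G x - m) / 2) - c) ^ 2 ∂μ := h1
  rw [h2] at h1'
  refine h1'.trans (mul_le_mul ha h3 (integral_nonneg fun x => sq_nonneg _) ?_)
  exact mul_nonneg hκ (integral_nonneg fun x => by positivity)

/-- (b3) -/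
theorem bl_b3 {G : EuclideanSpace ℝ (Fin n) → ℝ} {m : ℝ}
    (hL : ∀ x, ‖gradient G x‖ ≤ lam)
    (ip1 : Integrable (fun x => Real.exp (G x - m) * ‖gradient G x‖ ^ 2) μ)
    (iA1 : Integrable (fun x => (G x - m) ^ 2 * Real.exp (G x - m)) μ) :
    ∫ x, (deriv (fun s => (s - m) * Real.exp ((s - m) / 2)) (G x)) ^ 2 *
        ‖gradient G x‖ ^ 2 ∂μ ≤
      2 * (∫ x, Real.exp (G x - m) * ‖gradient G x‖ ^ 2 ∂μ) +
        lam ^ 2 / 2 * ∫ x, (G x - m) ^ 2 * Real.exp (G x - m) ∂μ := by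
  have j1 : Integrable (fun x => 2 * (Real.exp (G x - m) * ‖gradient G x‖ ^ 2)) μ :=
    ip1.const_mul _
  have j2 : Integrable (fun x => lam ^ 2 / 2 * ((G x - m) ^ 2 * Real.exp (G x - m))) μ :=
    iA1.const_mul _
  have i1 : Integrable (fun x => 2 * (Real.exp (G x - m) * ‖gradient G x‖ ^ 2) +
      lam ^ 2 / 2 * ((G x - m) ^ 2 * Real.exp (G x - m))) μ := j1.add j2
  rw [← integral_const_mul, ← integral_const_mul, ← integral_add j1 j2]
  refine integral_mono_of_nonneg (Eventually.of_forall fun x => by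
    show 0 ≤ (deriv (fun s => (s - m) * Real.exp ((s - m) / 2)) (G x)) ^ 2 *
      ‖gradient G x‖ ^ 2
    positivity) i1 (Eventually.of_forall fun x => ?_)
  have h6 : HasDerivAt (fun s => (s - m) * Real.exp ((s - m) / 2))
      (1 * Real.exp ((G x - m) / 2) + (G x - m) * (Real.exp ((G x - m) / 2) * (1 / 2)))
      (G x) := by
    have q1 := (hasDerivAt_id (G x)).sub_const m
    have q2 := (q1.div_const 2).exp
    exact q1.mul q2
  show (deriv (fun s => (s - m) * Real.exp ((s - m) / 2)) (G x)) ^ 2 *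
      ‖gradient G x‖ ^ 2 ≤ 2 * (Real.exp (G x - m) * ‖gradient G x‖ ^ 2) +
      lam ^ 2 / 2 * ((G x - m) ^ 2 * Real.exp (G x - m))
  rw [h6.deriv, exp_sq (G x - m)]
  exact pt2 (norm_nonneg _) (hL x)

theorem bl_b (hP : ∀ u : EuclideanSpace ℝ (Fin n) → ℝ, ContDiff ℝ ∞ u → HasCompactSupport u →
      (∫ x, u x ^ 2 ∂μ) - (∫ x, u x ∂μ) ^ 2 ≤ κ * ∫ x, ‖gradient u x‖ ^ 2 ∂μ)
    (hκ : 0 ≤ κ) (hkl : κ * lam ^ 2 ≤ 1 / 4)
    {G : EuclideanSpace ℝ (Fin n) → ℝ} (hG : ContDiff ℝ ∞ G) (hc : HasCompactSupport G)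
    (hL : ∀ x, ‖gradient G x‖ ≤ lam) {m : ℝ}
    (hU : ∫ x, (G x - m) ∂μ = 0)
    (ha : ∫ x, (G x - m) ^ 2 ∂μ ≤ κ * ∫ x, ‖gradient G x‖ ^ 2 ∂μ)
    (hp0l : ∫ x, ‖gradient G x‖ ^ 2 ∂μ ≤ lam ^ 2)
    (ip1 : Integrable (fun x => Real.exp (G x - m) * ‖gradient G x‖ ^ 2) μ)
    (iA1 : Integrable (fun x => (G x - m) ^ 2 * Real.exp (G x - m)) μ) :
    ∫ x, (G x - m) ^ 2 * Real.exp (G x - m) ∂μ ≤
      3 * (κ * ∫ x, Real.exp (G x - m) * ‖gradient G x‖ ^ 2 ∂μ) := by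
  have hmean := bl_b2 hP hκ hG hc hU ha
  have h4 := bl_b3 hL ip1 iA1
  have h1 := poin_comp hP hG hc (φ := fun s => (s - m) * Real.exp ((s - m) / 2)) (by fun_prop)
  obtain ⟨p0, hp0⟩ : ∃ p, p = ∫ x, ‖gradient G x‖ ^ 2 ∂μ := ⟨_, rfl⟩
  obtain ⟨p1, hp1⟩ : ∃ p, p = ∫ x, Real.exp (G x - m) * ‖gradient G x‖ ^ 2 ∂μ := ⟨_, rfl⟩
  obtain ⟨A1, hA1⟩ : ∃ p, p = ∫ x, (G x - m) ^ 2 * Real.exp (G x - m) ∂μ := ⟨_, rfl⟩
  have p1n : 0 ≤ p1 := by rw [hp1]; exact integral_nonneg fun x => by positivity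
  have A1n : 0 ≤ A1 := by rw [hA1]; exact integral_nonneg fun x => by positivity
  have h2 : ∫ x, ((G x - m) * Real.exp ((G x - m) / 2)) ^ 2 ∂μ = A1 := by
    rw [hA1]
    refine integral_congr_ae (Eventually.of_forall fun x => ?_)
    show ((G x - m) * Real.exp ((G x - m) / 2)) ^ 2 = (G x - m) ^ 2 * Real.exp (G x - m)
    rw [exp_sq (G x - m)]; ring
  rw [← hp1, ← hA1] at h4
  rw [← hp0, ← hp1] at hmean
  rw [← hp0] at hp0l
  rw [← hp1, ← hA1]
  have h5 : A1 - (∫ x, (G x - m) * Real.exp ((G x - m) / 2) ∂μ) ^ 2 ≤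
      κ * (2 * p1 + lam ^ 2 / 2 * A1) := by
    have := h1.trans (mul_le_mul_of_nonneg_left h4 hκ)
    have h1' : (∫ x, ((G x - m) * Real.exp ((G x - m) / 2)) ^ 2 ∂μ) -
        (∫ x, (G x - m) * Real.exp ((G x - m) / 2) ∂μ) ^ 2 ≤
        κ * (2 * p1 + lam ^ 2 / 2 * A1) := this
    rwa [h2] at h1'
  have h6 : κ * lam ^ 2 * A1 ≤ 1 / 4 * A1 := mul_le_mul_of_nonneg_right hkl A1n
  have h7 : (κ * p0) * (κ * ((1 / 4) * p1)) ≤ 1 / 16 * (κ * p1) := by
    have q1 : κ * p0 ≤ 1 / 4 := (mul_le_mul_of_nonneg_left hp0l hκ).trans hkl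
    have q2 : 0 ≤ κ * ((1 / 4) * p1) := by positivity
    have q3 := mul_le_mul_of_nonneg_right q1 q2
    linarith
  have h8 : 0 ≤ κ * p1 := by positivity
  have h9 : κ * (2 * p1 + lam ^ 2 / 2 * A1) = 2 * (κ * p1) + κ * lam ^ 2 * A1 / 2 := by ring
  rw [h9] at h5
  linarith

theorem hsum {G : EuclideanSpace ℝ (Fin n) → ℝ} {m : ℝ}
    (iE : Integrable (fun x => Real.exp (G x)) μ)
    (iGE : Integrable (fun x => G x * Real.exp (G x)) μ)
    (iA0 : Integrable (fun x => (G x - m) ^ 2) μ)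
    (iA1 : Integrable (fun x => (G x - m) ^ 2 * Real.exp (G x - m)) μ) :
    (∫ x, G x * Real.exp (G x) ∂μ) - (∫ x, Real.exp (G x) ∂μ) * m - (∫ x, Real.exp (G x) ∂μ) +
        Real.exp m ≤
      Real.exp m * ((∫ x, (G x - m) ^ 2 ∂μ) + ∫ x, (G x - m) ^ 2 * Real.exp (G x - m) ∂μ) := by
  have i0 : Integrable (fun x => m * Real.exp (G x)) μ := iE.const_mul m
  have i1 : Integrable (fun x => G x * Real.exp (G x) - m * Real.exp (G x)) μ :=
    iGE.sub i0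
  have i2 : Integrable (fun x => G x * Real.exp (G x) - m * Real.exp (G x) - Real.exp (G x)) μ :=
    i1.sub iE
  have i3 : Integrable (fun x => G x * Real.exp (G x) - m * Real.exp (G x) - Real.exp (G x) +
      Real.exp m) μ := i2.add (integrable_const _)
  have h1 : ∫ x, (G x * Real.exp (G x) - m * Real.exp (G x) - Real.exp (G x) +
      Real.exp m) ∂μ = (∫ x, G x * Real.exp (G x) ∂μ) - (∫ x, Real.exp (G x) ∂μ) * m -
      (∫ x, Real.exp (G x) ∂μ) + Real.exp m := by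
    rw [integral_add i2 (integrable_const _), integral_sub i1 iE,
      integral_sub iGE i0, integral_const_mul]
    simp; ring
  rw [← h1, ← integral_add iA0 iA1, ← integral_const_mul]
  have i4 : Integrable (fun x => Real.exp m * ((G x - m) ^ 2 +
      (G x - m) ^ 2 * Real.exp (G x - m))) μ := (iA0.add iA1).const_mul _
  refine integral_mono i3 i4 fun x => ?_
  show G x * Real.exp (G x) - m * Real.exp (G x) - Real.exp (G x) + Real.exp m ≤
    Real.exp m * ((G x - m) ^ 2 + (G x - m) ^ 2 * Real.exp (G x - m))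
  have h3 : Real.exp (G x) = Real.exp m * Real.exp (G x - m) := by
    rw [← Real.exp_add]; congr 1; ring
  have h4 := mul_le_mul_of_nonneg_left (pt1 (G x - m)) (Real.exp_pos m).le
  rw [h3]
  have h5 : G x * (Real.exp m * Real.exp (G x - m)) - m * (Real.exp m * Real.exp (G x - m)) -
      Real.exp m * Real.exp (G x - m) + Real.exp m =
      Real.exp m * ((G x - m) * Real.exp (G x - m) - Real.exp (G x - m) + 1) := by ring
  have h6 : Real.exp m * ((G x - m) ^ 2 + (G x - m) ^ 2 * Real.exp (G x - m)) =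
      Real.exp m * ((G x - m) ^ 2 * (1 + Real.exp (G x - m))) := by ring
  rw [h5, h6]
  exact h4

/-- **The modified logarithmic Sobolev inequality.** -/
theorem bl (hP : ∀ u : EuclideanSpace ℝ (Fin n) → ℝ, ContDiff ℝ ∞ u → HasCompactSupport u →
      (∫ x, u x ^ 2 ∂μ) - (∫ x, u x ∂μ) ^ 2 ≤ κ * ∫ x, ‖gradient u x‖ ^ 2 ∂μ)
    (hκ : 0 ≤ κ) (hlam0 : 0 ≤ lam) (hkl : κ * lam ^ 2 ≤ 1 / 4)
    {G : EuclideanSpace ℝ (Fin n) → ℝ} (hG : ContDiff ℝ ∞ G) (hc : HasCompactSupport G)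
    (hL : ∀ x, ‖gradient G x‖ ≤ lam) :
    Entropy μ (fun x => Real.exp (G x)) ≤
      5 * κ * ∫ x, Real.exp (G x) * ‖gradient G x‖ ^ 2 ∂μ := by
  obtain ⟨m, hm⟩ : ∃ m, m = ∫ x, G x ∂μ := ⟨_, rfl⟩
  have hGc := hG.continuous
  have I : ∀ {φ : ℝ → ℝ}, Continuous φ → Integrable (fun x => φ (G x)) μ := fun h =>
    int_comp hGc hc h
  have J : ∀ {φ : ℝ → ℝ}, Continuous φ → Integrable (fun x => φ (G x) * ‖gradient G x‖ ^ 2) μ :=
    fun h => int_comp_grad hG hc h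
  have iG : Integrable G μ := I (φ := fun s => s) continuous_id
  have ip0 : Integrable (fun x => ‖gradient G x‖ ^ 2) μ := by
    have := J (φ := fun _ => 1) continuous_const
    simpa using this
  have ip1 : Integrable (fun x => Real.exp (G x - m) * ‖gradient G x‖ ^ 2) μ :=
    J (φ := fun s => Real.exp (s - m)) (by fun_prop)
  have iA0 : Integrable (fun x => (G x - m) ^ 2) μ := I (φ := fun s => (s - m) ^ 2) (by fun_prop)
  have iA1 : Integrable (fun x => (G x - m) ^ 2 * Real.exp (G x - m)) μ :=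
    I (φ := fun s => (s - m) ^ 2 * Real.exp (s - m)) (by fun_prop)
  have iE : Integrable (fun x => Real.exp (G x)) μ := I (φ := Real.exp) (by fun_prop)
  have iGE : Integrable (fun x => G x * Real.exp (G x)) μ :=
    I (φ := fun s => s * Real.exp s) (by fun_prop)
  have hU : ∫ x, (G x - m) ∂μ = 0 := by
    rw [integral_sub iG (integrable_const _), ← hm]; simp
  -- (a)
  have ha : ∫ x, (G x - m) ^ 2 ∂μ ≤ κ * ∫ x, ‖gradient G x‖ ^ 2 ∂μ := by
    have h1 := hP G hG hc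
    have i2 : Integrable (fun x => G x ^ 2) μ := I (φ := fun s => s ^ 2) (by fun_prop)
    rw [← var_shift iG i2 m, hU] at h1
    linarith
  have hp0l : ∫ x, ‖gradient G x‖ ^ 2 ∂μ ≤ lam ^ 2 := by
    have h1 : ∫ x, ‖gradient G x‖ ^ 2 ∂μ ≤ ∫ _x, lam ^ 2 ∂μ :=
      integral_mono ip0 (integrable_const _) fun x =>
        pow_le_pow_left₀ (norm_nonneg _) (hL x) 2
    simpa using h1
  have hcc := bl_c hlam0 hkl hL ip0 ip1 iA0 ha
  have hb := bl_b hP hκ hkl hG hc hL hU ha hp0l ip1 iA1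
  have hs := hsum iE iGE iA0 iA1
  obtain ⟨p0, hp0⟩ : ∃ p, p = ∫ x, ‖gradient G x‖ ^ 2 ∂μ := ⟨_, rfl⟩
  obtain ⟨p1, hp1⟩ : ∃ p, p = ∫ x, Real.exp (G x - m) * ‖gradient G x‖ ^ 2 ∂μ := ⟨_, rfl⟩
  obtain ⟨A0, hA0⟩ : ∃ p, p = ∫ x, (G x - m) ^ 2 ∂μ := ⟨_, rfl⟩
  obtain ⟨A1, hA1⟩ : ∃ p, p = ∫ x, (G x - m) ^ 2 * Real.exp (G x - m) ∂μ := ⟨_, rfl⟩
  obtain ⟨Z, hZ⟩ : ∃ Z, Z = ∫ x, Real.exp (G x) ∂μ := ⟨_, rfl⟩
  have hZ0 : 0 < Z := by
    rw [hZ]; exact integral_exp_pos iE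
  have hent : Entropy μ (fun x => Real.exp (G x)) =
      (∫ x, G x * Real.exp (G x) ∂μ) - Z * Real.log Z := by
    unfold Entropy
    rw [← hZ]
    congr 1
    refine integral_congr_ae (Eventually.of_forall fun x => ?_)
    show Real.exp (G x) * Real.log (Real.exp (G x)) = G x * Real.exp (G x)
    rw [Real.log_exp]; ring
  have hlog : -(Z * Real.log Z) ≤ -(Z * m) - Z + Real.exp m := by
    have h1 : 0 < Real.exp m / Z := by positivity
    have h2 := Real.log_le_sub_one_of_pos h1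
    rw [Real.log_div (Real.exp_pos m).ne' hZ0.ne', Real.log_exp] at h2
    have h3 := mul_le_mul_of_nonneg_left h2 hZ0.le
    have h4 : Z * (Real.exp m / Z - 1) = Real.exp m - Z := by field_simp
    rw [h4] at h3
    have h5 : Z * (m - Real.log Z) = Z * m - Z * Real.log Z := by ring
    linarith
  have hfin : Real.exp m * p1 = ∫ x, Real.exp (G x) * ‖gradient G x‖ ^ 2 ∂μ := by
    rw [hp1, ← integral_const_mul]
    refine integral_congr_ae (Eventually.of_forall fun x => ?_)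
    show Real.exp m * (Real.exp (G x - m) * ‖gradient G x‖ ^ 2) =
      Real.exp (G x) * ‖gradient G x‖ ^ 2
    have h3 : Real.exp (G x) = Real.exp m * Real.exp (G x - m) := by
      rw [← Real.exp_add]; congr 1; ring
    rw [h3]; ring
  rw [← hfin, hent]
  rw [← hp0, ← hp1] at hcc
  rw [← hA0, ← hp0] at ha
  rw [← hA1, ← hp1] at hb
  rw [← hA0, ← hA1, ← hZ] at hs
  have h9 : A0 + A1 ≤ 5 * (κ * p1) := by
    have := mul_le_mul_of_nonneg_left hcc hκ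
    linarith
  have h10 := mul_le_mul_of_nonneg_left h9 (Real.exp_pos m).le
  have h11 : 5 * κ * (Real.exp m * p1) = Real.exp m * (5 * (κ * p1)) := by ring
  rw [h11]
  linarith

end

end Vale.Agent.P245.H887
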