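import Vale.Agent.P245.H887.Steep

/-!
P245 (helper887): the statement for the hand-in. A Poincaré inequality with constant `κ` implies
the logarithmic Sobolev inequality with constant `A (1 + log R) κ` for every `f ∈ C_c^∞` with
`A κ |Df|² ≤ f²` at all points where `f² > R ∫ f²` (no condition elsewhere).
-/

open MeasureTheory Filter Topology
open scoped ContDiff

namespace Vale.Agent.P245.H887

/-- the degenerate case -/
theorem ent_zero {n : ℕ} {μ : Measure (EuclideanSpace ℝ (Fin n))} [IsProbabilityMeasure μ]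
    {f : EuclideanSpace ℝ (Fin n) → ℝ} (hf : Continuous f) (hc : HasCompactSupport f)
    (hv : (∫ x, f x ^ 2 ∂μ) - (∫ x, f x ∂μ) ^ 2 ≤ 0) : Entropy μ (fun x => f x ^ 2) = 0 := by
  obtain ⟨m, hm⟩ : ∃ m, m = ∫ x, f x ∂μ := ⟨_, rfl⟩
  have i1 : Integrable f μ := int_comp hf hc (φ := fun s => s) continuous_id
  have i2 : Integrable (fun x => f x ^ 2) μ := int_comp hf hc (φ := fun s => s ^ 2) (by fun_prop)
  have i3 : Integrable (fun x => (f x - m) ^ 2) μ :=
    int_comp hf hc (φ := fun s => (s - m) ^ 2) (by fun_prop)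
  have h0 : ∫ x, (f x - m) ∂μ = 0 := by
    rw [integral_sub i1 (integrable_const _), ← hm]; simp
  have h1 := var_shift i1 i2 m
  rw [h0] at h1
  have h2 : ∫ x, (f x - m) ^ 2 ∂μ = 0 := by
    have : 0 ≤ ∫ x, (f x - m) ^ 2 ∂μ := integral_nonneg fun x => sq_nonneg _
    linarith
  have h3 : (fun x => (f x - m) ^ 2) =ᵐ[μ] 0 :=
    (integral_eq_zero_iff_of_nonneg (fun x => sq_nonneg (f x - m)) i3).mp h2
  have h4 : ∀ᵐ x ∂μ, f x = m := by
    filter_upwards [h3] with x hx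
    have : (f x - m) ^ 2 = 0 := hx
    have := pow_eq_zero_iff (two_ne_zero) |>.mp this
    linarith
  have e1 : ∫ x, f x ^ 2 ∂μ = m ^ 2 := by
    have : (fun x => f x ^ 2) =ᵐ[μ] fun _ => m ^ 2 := by
      filter_upwards [h4] with x hx
      rw [hx]
    rw [integral_congr_ae this]; simp
  have e2 : ∫ x, f x ^ 2 * Real.log (f x ^ 2) ∂μ = m ^ 2 * Real.log (m ^ 2) := by
    have : (fun x => f x ^ 2 * Real.log (f x ^ 2)) =ᵐ[μ] fun _ => m ^ 2 * Real.log (m ^ 2) := by
      filter_upwards [h4] with x hx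
      rw [hx]
    rw [integral_congr_ae this]; simp
  unfold Entropy
  rw [e2, e1, sub_self]

/-- **The block.** `A` is absolute. -/
theorem steep_block : ∃ A : ℝ, 1 ≤ A ∧
    ∀ (n : ℕ) (μ : Measure (EuclideanSpace ℝ (Fin n))) [IsProbabilityMeasure μ] (κ : ℝ), 0 ≤ κ →
      (∀ u : EuclideanSpace ℝ (Fin n) → ℝ, ContDiff ℝ ∞ u → HasCompactSupport u →
        (∫ x, u x ^ 2 ∂μ) - (∫ x, u x ∂μ) ^ 2 ≤ κ * ∫ x, ‖gradient u x‖ ^ 2 ∂μ) →
      ∀ f : EuclideanSpace ℝ (Fin n) → ℝ, ContDiff ℝ ∞ f → HasCompactSupport f →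
        ∀ R : ℝ, 1 ≤ R →
          (∀ x, R * ∫ y, f y ^ 2 ∂μ < f x ^ 2 → A * κ * ‖gradient f x‖ ^ 2 ≤ f x ^ 2) →
          Entropy μ (fun x => f x ^ 2) ≤
            A * (1 + Real.log R) * κ * ∫ x, ‖gradient f x‖ ^ 2 ∂μ := by
  obtain ⟨B, hB, hBd⟩ := bound
  refine ⟨21 * B, by linarith, fun n μ _ κ hκ hP f hf hc R hR hst => ?_⟩
  have hI : 0 ≤ ∫ x, ‖gradient f x‖ ^ 2 ∂μ := integral_nonneg fun x => by positivity
  rcases hκ.eq_or_lt with h0 | h0
  · have hv := hP f hf hc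
    rw [← h0, zero_mul] at hv
    rw [ent_zero hf.continuous hc hv, ← h0]
    simp
  · have hR0 : 0 ≤ R := by linarith
    have hM : 1 ≤ √R := Real.one_le_sqrt.mpr hR
    have hMs : √R ^ 2 = R := Real.sq_sqrt hR0
    have h1 := main hB hBd hP h0 hf hc hM (fun x hx => by
      rw [hMs] at hx
      have h2 := hst x hx
      have h3 : 4 * B * κ * ‖gradient f x‖ ^ 2 ≤ 21 * B * κ * ‖gradient f x‖ ^ 2 := by
        have : 0 ≤ B * κ * ‖gradient f x‖ ^ 2 := by positivity
        linarith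
      exact h3.trans h2)
    refine h1.trans ?_
    have h4 : Real.log √R = Real.log R / 2 := Real.log_sqrt hR0
    have h5 : 0 ≤ Real.log R := Real.log_nonneg hR
    rw [h4]
    refine mul_le_mul_of_nonneg_right ?_ hI
    refine mul_le_mul_of_nonneg_right ?_ h0.le
    exact mul_le_mul_of_nonneg_left (by linarith) (by positivity)

end Vale.Agent.P245.H887
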