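import Vale.Agent.P245.H882.Weight

/-!
P245 (helper887): monotone form of helper882's `weight_block`, over helper887's library.
-/

open MeasureTheory
open scoped ContDiff

namespace Vale.Agent.P245.H887

/-- `A` is absolute; `κ` is a Poincaré constant and `D ≥ A κ`. -/
theorem weight_mono : ∃ A : ℝ, 1 ≤ A ∧
    ∀ (n : ℕ) (μ : Measure (EuclideanSpace ℝ (Fin n))) [IsProbabilityMeasure μ] (κ : ℝ), 0 ≤ κ →
      (∀ u : EuclideanSpace ℝ (Fin n) → ℝ, ContDiff ℝ ∞ u → HasCompactSupport u →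
        (∫ x, u x ^ 2 ∂μ) - (∫ x, u x ∂μ) ^ 2 ≤ κ * ∫ x, ‖gradient u x‖ ^ 2 ∂μ) →
      ∀ D : ℝ, A * κ ≤ D →
      ∀ f : EuclideanSpace ℝ (Fin n) → ℝ, ContDiff ℝ ∞ f → HasCompactSupport f →
        Entropy μ (fun x => f x ^ 2) ≤ D * ∫ x,
          (1 + if f x ^ 2 < D * ‖gradient f x‖ ^ 2 then
            max 0 (Real.log (f x ^ 2 / ∫ y, f y ^ 2 ∂μ)) else 0) * ‖gradient f x‖ ^ 2 ∂μ := by
  obtain ⟨A, hA, h⟩ := H882.weight_block
  refine ⟨A, hA, fun n μ _ κ hκ hP D hD f hf hc => ?_⟩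
  have hAk : 0 ≤ A * κ := mul_nonneg (by linarith) hκ
  have h1 := h n μ κ hκ hP f hf hc
  refine h1.trans ?_
  have h2 : ∫ x, H882.wt f (A * κ) (∫ y, f y ^ 2 ∂μ) x * ‖gradient f x‖ ^ 2 ∂μ ≤
      ∫ x, H882.wt f D (∫ y, f y ^ 2 ∂μ) x * ‖gradient f x‖ ^ 2 ∂μ :=
    integral_mono (H882.int_wt hf hc _ _) (H882.int_wt hf hc _ _) fun x =>
      mul_le_mul_of_nonneg_right (H882.wt_mono f hD _ x) (sq_nonneg _)
  have h3 : 0 ≤ ∫ x, H882.wt f (A * κ) (∫ y, f y ^ 2 ∂μ) x * ‖gradient f x‖ ^ 2 ∂μ := by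
    refine integral_nonneg fun x => mul_nonneg ?_ (sq_nonneg _)
    show 0 ≤ 1 + if f x ^ 2 < A * κ * ‖gradient f x‖ ^ 2 then
      max 0 (Real.log (f x ^ 2 / ∫ y, f y ^ 2 ∂μ)) else 0
    split_ifs
    · have := le_max_left 0 (Real.log (f x ^ 2 / ∫ y, f y ^ 2 ∂μ))
      linarith
    · norm_num
  exact mul_le_mul hD h2 h3 (hAk.trans hD)

end Vale.Agent.P245.H887
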