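import Vale.Agent.P245.H887.Block

/-!
P245 (helper887): the monotone form of `steep_block` for the hand-in: `A` absolute; `P` is any
Poincaré constant `C Λ` and `C'` any constant `≥ A C`.
-/

open MeasureTheory
open scoped ContDiff

namespace Vale.Agent.P245.H887

theorem steep_mono : ∃ A : ℝ, 1 ≤ A ∧
    ∀ (n : ℕ) (μ : Measure (EuclideanSpace ℝ (Fin n))) [IsProbabilityMeasure μ] (C Λ : ℝ),
      0 < C → 0 ≤ Λ →
      (∀ u : EuclideanSpace ℝ (Fin n) → ℝ, ContDiff ℝ ∞ u → HasCompactSupport u →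
        (∫ x, u x ^ 2 ∂μ) - (∫ x, u x ∂μ) ^ 2 ≤ C * Λ * ∫ x, ‖gradient u x‖ ^ 2 ∂μ) →
      ∀ C' : ℝ, A * C ≤ C' →
      ∀ f : EuclideanSpace ℝ (Fin n) → ℝ, ContDiff ℝ ∞ f → HasCompactSupport f →
        ∀ R : ℝ, 1 ≤ R →
          (∀ x, R * ∫ y, f y ^ 2 ∂μ < f x ^ 2 → C' * Λ * ‖gradient f x‖ ^ 2 ≤ f x ^ 2) →
          Entropy μ (fun x => f x ^ 2) ≤
            C' * (1 + Real.log R) * Λ * ∫ x, ‖gradient f x‖ ^ 2 ∂μ := by
  obtain ⟨A, hA, h⟩ := steep_block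
  refine ⟨A, hA, fun n μ _ C Λ hC hΛ hP C' hC' f hf hc R hR hst => ?_⟩
  have hI : 0 ≤ ∫ x, ‖gradient f x‖ ^ 2 ∂μ := integral_nonneg fun x => by positivity
  have hL : 0 ≤ Real.log R := Real.log_nonneg hR
  have h1 := h n μ (C * Λ) (mul_nonneg hC.le hΛ) hP f hf hc R hR (fun x hx => by
    refine le_trans ?_ (hst x hx)
    have h2 : 0 ≤ Λ * ‖gradient f x‖ ^ 2 := by positivity
    have h3 := mul_le_mul_of_nonneg_right hC' h2
    calc A * (C * Λ) * ‖gradient f x‖ ^ 2 = A * C * (Λ * ‖gradient f x‖ ^ 2) := by ring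
      _ ≤ C' * (Λ * ‖gradient f x‖ ^ 2) := h3
      _ = C' * Λ * ‖gradient f x‖ ^ 2 := by ring)
  refine h1.trans ?_
  have h4 : 0 ≤ (1 + Real.log R) * Λ * ∫ x, ‖gradient f x‖ ^ 2 ∂μ :=
    mul_nonneg (mul_nonneg (by linarith) hΛ) hI
  have h5 := mul_le_mul_of_nonneg_right hC' h4
  calc A * (1 + Real.log R) * (C * Λ) * ∫ x, ‖gradient f x‖ ^ 2 ∂μ
      = A * C * ((1 + Real.log R) * Λ * ∫ x, ‖gradient f x‖ ^ 2 ∂μ) := by ring
    _ ≤ C' * ((1 + Real.log R) * Λ * ∫ x, ‖gradient f x‖ ^ 2 ∂μ) := h5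
    _ = C' * (1 + Real.log R) * Λ * ∫ x, ‖gradient f x‖ ^ 2 ∂μ := by ring

end Vale.Agent.P245.H887
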