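import Vale.Agent.P245.H887.Theta

/-!
P245 (helper887): from a Poincaré inequality to the logarithmic Sobolev inequality for all
functions which are not steep at high levels.
-/

open MeasureTheory Filter Topology
open scoped ContDiff

namespace Vale.Agent.P245.H887

variable {n : ℕ} {μ : Measure (EuclideanSpace ℝ (Fin n))} [IsProbabilityMeasure μ] {κ : ℝ}

/-- the entropy of `f²` through the normalised integrand -/
theorem ent_norm {f : EuclideanSpace ℝ (Fin n) → ℝ} (hf : Continuous f)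
    (hc : HasCompactSupport f) {Q : ℝ} (hQ : Q = ∫ x, f x ^ 2 ∂μ) (hQ0 : 0 < Q) :
    Entropy μ (fun x => f x ^ 2) =
      Q * ∫ x, ((|f x| / √Q) ^ 2 * Real.log ((|f x| / √Q) ^ 2) - (|f x| / √Q) ^ 2 + 1) ∂μ := by
  have hs : 0 < √Q := Real.sqrt_pos.mpr hQ0
  have hsq : √Q ^ 2 = Q := Real.sq_sqrt hQ0.le
  have i1 : Integrable (fun x => f x ^ 2) μ :=
    int_comp hf hc (φ := fun s => s ^ 2) (by fun_prop)
  have i2 : Integrable (fun x => f x ^ 2 * Real.log (f x ^ 2)) μ :=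
    int_comp hf hc (φ := fun s => s ^ 2 * Real.log (s ^ 2))
      (Real.continuous_mul_log.comp (continuous_pow 2))
  have e1 : ∀ x, Q * ((|f x| / √Q) ^ 2 * Real.log ((|f x| / √Q) ^ 2) - (|f x| / √Q) ^ 2 + 1) =
      f x ^ 2 * Real.log (f x ^ 2) - (Real.log Q + 1) * f x ^ 2 + Q := by
    intro x
    have h1 : (|f x| / √Q) ^ 2 = f x ^ 2 / Q := by rw [div_pow, sq_abs, hsq]
    rw [h1]
    by_cases hx : f x = 0
    · simp [hx]
    · have h2 : 0 < f x ^ 2 := by positivity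
      rw [Real.log_div h2.ne' hQ0.ne']
      field_simp
      ring
  have e2 : Q * ∫ x, ((|f x| / √Q) ^ 2 * Real.log ((|f x| / √Q) ^ 2) - (|f x| / √Q) ^ 2 + 1) ∂μ =
      ∫ x, (f x ^ 2 * Real.log (f x ^ 2) - (Real.log Q + 1) * f x ^ 2 + Q) ∂μ := by
    rw [← integral_const_mul]
    exact integral_congr_ae (Eventually.of_forall e1)
  have j1 : Integrable (fun x => (Real.log Q + 1) * f x ^ 2) μ := i1.const_mul _
  have j2 : Integrable (fun x => f x ^ 2 * Real.log (f x ^ 2) - (Real.log Q + 1) * f x ^ 2) μ :=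
    i2.sub j1
  rw [e2, integral_add j2 (integrable_const _), integral_sub i2 j1, integral_const_mul, ← hQ]
  unfold Entropy
  rw [← hQ]
  simp
  ring

/-- `∫ (|f|/N - 1)² ≤ 2 Var f / N²` -/
theorem abs_var {f : EuclideanSpace ℝ (Fin n) → ℝ} (hf : Continuous f)
    (hc : HasCompactSupport f) {Q : ℝ} (hQ : Q = ∫ x, f x ^ 2 ∂μ) (hQ0 : 0 < Q) :
    Q * ∫ x, (|f x| / √Q - 1) ^ 2 ∂μ ≤ 2 * ((∫ x, f x ^ 2 ∂μ) - (∫ x, f x ∂μ) ^ 2) := by
  have hs : 0 < √Q := Real.sqrt_pos.mpr hQ0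
  have hsq : √Q ^ 2 = Q := Real.sq_sqrt hQ0.le
  have i1 : Integrable (fun x => f x ^ 2) μ :=
    int_comp hf hc (φ := fun s => s ^ 2) (by fun_prop)
  have i2 : Integrable (fun x => |f x|) μ := int_comp hf hc (φ := fun s => |s|) (by fun_prop)
  obtain ⟨b, hb⟩ : ∃ b, b = ∫ x, |f x| ∂μ := ⟨_, rfl⟩
  have e1 : ∀ x, Q * (|f x| / √Q - 1) ^ 2 = f x ^ 2 - 2 * √Q * |f x| + Q := by
    intro x
    have h1 : |f x| ^ 2 = f x ^ 2 := sq_abs _
    have h2 : Q * (|f x| / √Q - 1) ^ 2 = (√Q * (|f x| / √Q - 1)) ^ 2 := by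
      rw [mul_pow, hsq]
    have h3 : √Q * (|f x| / √Q - 1) = |f x| - √Q := by field_simp
    rw [h2, h3, ← h1]
    ring_nf
    rw [hsq]
  have j1 : Integrable (fun x => 2 * √Q * |f x|) μ := i2.const_mul _
  have j2 : Integrable (fun x => f x ^ 2 - 2 * √Q * |f x|) μ := i1.sub j1
  have e2 : Q * ∫ x, (|f x| / √Q - 1) ^ 2 ∂μ = 2 * Q - 2 * √Q * b := by
    rw [← integral_const_mul]
    have : ∫ x, Q * (|f x| / √Q - 1) ^ 2 ∂μ = ∫ x, (f x ^ 2 - 2 * √Q * |f x| + Q) ∂μ :=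
      integral_congr_ae (Eventually.of_forall e1)
    rw [this, integral_add j2 (integrable_const _), integral_sub i1 j1, integral_const_mul,
      ← hQ, ← hb]
    simp
    ring
  have hb0 : 0 ≤ b := by rw [hb]; exact integral_nonneg fun x => abs_nonneg _
  have hnn : 0 ≤ Q * ∫ x, (|f x| / √Q - 1) ^ 2 ∂μ :=
    mul_nonneg hQ0.le (integral_nonneg fun x => sq_nonneg _)
  have hbs : b ≤ √Q := by
    have h1 : √Q * b ≤ √Q * √Q := by
      have : √Q * √Q = Q := by rw [← sq, hsq]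
      rw [this]
      linarith
    exact le_of_mul_le_mul_left h1 hs
  have hf1 : |∫ x, f x ∂μ| ≤ b := by
    rw [hb]; exact abs_integral_le_integral_abs
  have hf2 : (∫ x, f x ∂μ) ^ 2 ≤ √Q * b := by
    have h1 : (∫ x, f x ∂μ) ^ 2 ≤ b ^ 2 := by
      rw [← sq_abs]; exact pow_le_pow_left₀ (abs_nonneg _) hf1 2
    have h2 : b * b ≤ √Q * b := mul_le_mul_of_nonneg_right hbs hb0
    nlinarith
  rw [e2, ← hQ]
  linarith

/-- the entropy of the truncation -/
theorem ent_trunc (hP : ∀ u : EuclideanSpace ℝ (Fin n) → ℝ, ContDiff ℝ ∞ u →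
      HasCompactSupport u →
      (∫ x, u x ^ 2 ∂μ) - (∫ x, u x ∂μ) ^ 2 ≤ κ * ∫ x, ‖gradient u x‖ ^ 2 ∂μ)
    (hκ : 0 < κ) {B : ℝ} (hB : 1 ≤ B) (hBd : ∀ y : ℝ, (deriv Th y) ^ 2 * y ^ 2 ≤ B ∧
      Real.exp (Th y) * (deriv Th y) ^ 2 ≤ B)
    {f : EuclideanSpace ℝ (Fin n) → ℝ} (hf : ContDiff ℝ ∞ f) (hc : HasCompactSupport f)
    {k : ℝ} (hst : ∀ x, 1 < (k * f x) ^ 2 → 4 * B * κ * ‖gradient f x‖ ^ 2 ≤ f x ^ 2) :
    Entropy μ (fun x => Real.exp (Th (k * f x))) ≤
      5 * κ * (B * k ^ 2 * ∫ x, ‖gradient f x‖ ^ 2 ∂μ) := by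
  have hB0 : 0 < B := by linarith
  have hφ : ContDiff ℝ ∞ fun s : ℝ => Th (k * s) := by
    have : ContDiff ℝ ∞ fun s : ℝ => k * s := by fun_prop
    exact Th_cd.comp this
  have hG : ContDiff ℝ ∞ fun x => Th (k * f x) := hφ.comp hf
  have hGc : HasCompactSupport fun x => Th (k * f x) :=
    hc.comp_left (g := fun s : ℝ => Th (k * s)) (by
      show Th (k * 0) = 0
      rw [mul_zero]; exact Th_small (by norm_num))
  have hder : ∀ s : ℝ, deriv (fun s : ℝ => Th (k * s)) s = k * deriv Th (k * s) := by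
    intro s
    have h1 : HasDerivAt Th (deriv Th (k * s)) (k * s) :=
      (Th_cd.differentiable (by simp)).differentiableAt.hasDerivAt
    have h2 : HasDerivAt (fun s : ℝ => k * s) k s := by
      simpa using (hasDerivAt_id s).const_mul k
    have h3 := (h1.comp s h2).deriv
    have h4 : deriv (fun s : ℝ => Th (k * s)) s = deriv Th (k * s) * k := h3
    rw [h4]; ring
  have hgr : ∀ x, ‖gradient (fun y => Th (k * f y)) x‖ ^ 2 =
      k ^ 2 * (deriv Th (k * f x)) ^ 2 * ‖gradient f x‖ ^ 2 := by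
    intro x
    have h1 := norm_gradient_comp hφ hf x
    have h2 : ‖gradient (fun y => Th (k * f y)) x‖ =
        |deriv (fun s : ℝ => Th (k * s)) (f x)| * ‖gradient f x‖ := h1
    rw [h2, hder, mul_pow, sq_abs, mul_pow]
  obtain ⟨lam, hlam⟩ : ∃ lam, lam = √(1 / (4 * κ)) := ⟨_, rfl⟩
  have hlam0 : 0 ≤ lam := by rw [hlam]; exact Real.sqrt_nonneg _
  have hlam2 : lam ^ 2 = 1 / (4 * κ) := by rw [hlam]; exact Real.sq_sqrt (by positivity)
  have hkl : κ * lam ^ 2 ≤ 1 / 4 := by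
    rw [hlam2]
    have : κ * (1 / (4 * κ)) = 1 / 4 := by field_simp
    linarith
  have hL : ∀ x, ‖gradient (fun y => Th (k * f y)) x‖ ≤ lam := by
    intro x
    refine (sq_le_sq₀ (norm_nonneg _) hlam0).mp ?_
    rw [hgr, hlam2]
    rcases le_or_gt ((k * f x) ^ 2) 1 with h | h
    · rw [deriv_small h]
      have : 0 ≤ 1 / (4 * κ) := by positivity
      simpa using this
    · have h1 := hst x h
      have h2 := (hBd (k * f x)).1
      rw [le_div_iff₀ (by positivity)]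
      have h3 : k ^ 2 * (deriv Th (k * f x)) ^ 2 * (4 * B * κ * ‖gradient f x‖ ^ 2) ≤
          k ^ 2 * (deriv Th (k * f x)) ^ 2 * f x ^ 2 :=
        mul_le_mul_of_nonneg_left h1 (by positivity)
      have h4 : k ^ 2 * (deriv Th (k * f x)) ^ 2 * f x ^ 2 =
          (deriv Th (k * f x)) ^ 2 * (k * f x) ^ 2 := by ring
      have h5 : B * (k ^ 2 * deriv Th (k * f x) ^ 2 * ‖gradient f x‖ ^ 2 * (4 * κ)) ≤ B * 1 := by
        calc B * (k ^ 2 * deriv Th (k * f x) ^ 2 * ‖gradient f x‖ ^ 2 * (4 * κ))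
            = k ^ 2 * (deriv Th (k * f x)) ^ 2 * (4 * B * κ * ‖gradient f x‖ ^ 2) := by ring
          _ ≤ B := by rw [h4] at h3; exact h3.trans h2
          _ = B * 1 := by ring
      exact le_of_mul_le_mul_left h5 hB0
  have h1 := bl hP hκ.le hlam0 hkl hG hGc hL
  refine h1.trans ?_
  have h2 : ∫ x, Real.exp (Th (k * f x)) * ‖gradient (fun y => Th (k * f y)) x‖ ^ 2 ∂μ ≤
      B * k ^ 2 * ∫ x, ‖gradient f x‖ ^ 2 ∂μ := by
    rw [← integral_const_mul]
    have i1 : Integrable (fun x => B * k ^ 2 * ‖gradient f x‖ ^ 2) μ := by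
      have := int_comp_grad (μ := μ) hf hc (φ := fun _ => B * k ^ 2) continuous_const
      exact this
    refine integral_mono_of_nonneg (Eventually.of_forall fun x => by
      show 0 ≤ Real.exp (Th (k * f x)) * ‖gradient (fun y => Th (k * f y)) x‖ ^ 2
      positivity) i1 (Eventually.of_forall fun x => ?_)
    show Real.exp (Th (k * f x)) * ‖gradient (fun y => Th (k * f y)) x‖ ^ 2 ≤
      B * k ^ 2 * ‖gradient f x‖ ^ 2
    rw [hgr]
    have h3 := mul_le_mul_of_nonneg_right (hBd (k * f x)).2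
      (show 0 ≤ k ^ 2 * ‖gradient f x‖ ^ 2 by positivity)
    have h4 : Real.exp (Th (k * f x)) * (k ^ 2 * (deriv Th (k * f x)) ^ 2 * ‖gradient f x‖ ^ 2) =
        Real.exp (Th (k * f x)) * deriv Th (k * f x) ^ 2 * (k ^ 2 * ‖gradient f x‖ ^ 2) := by ring
    have h5 : B * k ^ 2 * ‖gradient f x‖ ^ 2 = B * (k ^ 2 * ‖gradient f x‖ ^ 2) := by ring
    rw [h4, h5]
    exact h3
  exact mul_le_mul_of_nonneg_left h2 (by positivity)

/-- **From the Poincaré inequality to the logarithmic Sobolev inequality for all functions which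
are not steep at high levels.** -/
theorem main {B : ℝ} (hB : 1 ≤ B) (hBd : ∀ y : ℝ, (deriv Th y) ^ 2 * y ^ 2 ≤ B ∧
      Real.exp (Th y) * (deriv Th y) ^ 2 ≤ B)
    (hP : ∀ u : EuclideanSpace ℝ (Fin n) → ℝ, ContDiff ℝ ∞ u →
      HasCompactSupport u →
      (∫ x, u x ^ 2 ∂μ) - (∫ x, u x ∂μ) ^ 2 ≤ κ * ∫ x, ‖gradient u x‖ ^ 2 ∂μ)
    (hκ : 0 < κ) {f : EuclideanSpace ℝ (Fin n) → ℝ} (hf : ContDiff ℝ ∞ f)
    (hc : HasCompactSupport f) {M : ℝ} (hM : 1 ≤ M)
    (hst : ∀ x, M ^ 2 * ∫ y, f y ^ 2 ∂μ < f x ^ 2 → 4 * B * κ * ‖gradient f x‖ ^ 2 ≤ f x ^ 2) :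
    Entropy μ (fun x => f x ^ 2) ≤
      21 * B * (1 + Real.log M) * κ * ∫ x, ‖gradient f x‖ ^ 2 ∂μ := by
  have hM0 : 0 < M := by linarith
  have hL : 0 ≤ Real.log M := Real.log_nonneg hM
  have hI : 0 ≤ ∫ x, ‖gradient f x‖ ^ 2 ∂μ := integral_nonneg fun x => by positivity
  obtain ⟨Q, hQ⟩ : ∃ Q, Q = ∫ x, f x ^ 2 ∂μ := ⟨_, rfl⟩
  have hfc := hf.continuous
  have i1 : Integrable (fun x => f x ^ 2) μ :=
    int_comp hfc hc (φ := fun s => s ^ 2) (by fun_prop)
  have hQn : 0 ≤ Q := by rw [hQ]; exact integral_nonneg fun x => sq_nonneg _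
  rcases hQn.eq_or_lt with hQ0 | hQ0
  · -- `f = 0` almost everywhere
    have h1 : (fun x => f x ^ 2) =ᵐ[μ] 0 := by
      rw [← integral_eq_zero_iff_of_nonneg (fun x => sq_nonneg (f x)) i1]
      rw [← hQ, ← hQ0]
    have h2 : ∫ x, f x ^ 2 * Real.log (f x ^ 2) ∂μ = 0 := by
      have : (fun x => f x ^ 2 * Real.log (f x ^ 2)) =ᵐ[μ] 0 := by
        filter_upwards [h1] with x hx
        have hx' : f x ^ 2 = 0 := hx
        show f x ^ 2 * Real.log (f x ^ 2) = 0
        rw [hx', zero_mul]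
      rw [integral_congr_ae this]; simp
    have h3 : Entropy μ (fun x => f x ^ 2) = 0 := by
      unfold Entropy
      rw [h2, ← hQ, ← hQ0]; simp
    rw [h3]
    have : 0 ≤ 21 * B * (1 + Real.log M) * κ := by positivity
    exact mul_nonneg this hI
  have hs : 0 < √Q := Real.sqrt_pos.mpr hQ0
  have hsq : √Q ^ 2 = Q := Real.sq_sqrt hQ0.le
  obtain ⟨k, hk⟩ : ∃ k, k = 1 / (M * √Q) := ⟨_, rfl⟩
  have hk0 : 0 < k := by rw [hk]; positivity
  have hk2 : k ^ 2 = 1 / (M ^ 2 * Q) := by rw [hk, div_pow, mul_pow, hsq, one_pow]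
  have hkMQ : M ^ 2 * Q * k ^ 2 = 1 := by rw [hk2]; field_simp
  have hst' : ∀ x, 1 < (k * f x) ^ 2 → 4 * B * κ * ‖gradient f x‖ ^ 2 ≤ f x ^ 2 := by
    intro x hx
    refine hst x ?_
    rw [← hQ]
    have h1 : (k * f x) ^ 2 = f x ^ 2 / (M ^ 2 * Q) := by rw [mul_pow, hk2]; ring
    rw [h1, lt_div_iff₀ (by positivity)] at hx
    linarith
  have hT := ent_trunc hP hκ hB hBd hf hc hst'
  -- the mean of the truncation
  obtain ⟨e, he⟩ : ∃ e, e = (∫ x, ww (k * f x) ∂μ) - 1 := ⟨_, rfl⟩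
  have hwc : Continuous fun s : ℝ => ww (k * s) := ww_cd.continuous.comp (by fun_prop)
  have iw : Integrable (fun x => ww (k * f x)) μ := int_comp hfc hc (φ := fun s => ww (k * s)) hwc
  have he0 : 0 ≤ e := by
    have h1 : ∫ _x, (1:ℝ) ∂μ ≤ ∫ x, ww (k * f x) ∂μ :=
      integral_mono (integrable_const _) iw fun x => one_le_ww _
    simp at h1
    rw [he]; linarith
  have he1 : e ≤ 1 := by
    have j1 : Integrable (fun x => k ^ 2 * f x ^ 2) μ := i1.const_mul _
    have j2 : Integrable (fun x => 1 + k ^ 2 * f x ^ 2) μ := (integrable_const _).add j1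
    have h1 : ∫ x, ww (k * f x) ∂μ ≤ ∫ x, (1 + k ^ 2 * f x ^ 2) ∂μ := by
      refine integral_mono iw j2 fun x => ?_
      have := ww_le (k * f x)
      rw [mul_pow] at this
      exact this
    rw [integral_add (integrable_const _) j1, integral_const_mul, ← hQ] at h1
    have h2 : k ^ 2 * Q ≤ 1 := by
      have h3 : k ^ 2 * Q ≤ M ^ 2 * (k ^ 2 * Q) := by
        have : 1 ≤ M ^ 2 := by nlinarith
        have h4 : 0 ≤ k ^ 2 * Q := by positivity
        nlinarith
      linarith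
    simp at h1
    rw [he]; linarith
  -- the entropy of the truncation
  have hEW : Entropy μ (fun x => Real.exp (Th (k * f x))) =
      ∫ x, (ww (k * f x) * Real.log (ww (k * f x)) - ww (k * f x) * Real.log (1 + e) -
        ww (k * f x) + (1 + e)) ∂μ := by
    have hwl : Continuous fun s : ℝ => ww (k * s) * Real.log (ww (k * s)) :=
      Real.continuous_mul_log.comp hwc
    have j1 : Integrable (fun x => ww (k * f x) * Real.log (ww (k * f x))) μ :=
      int_comp hfc hc (φ := fun s => ww (k * s) * Real.log (ww (k * s))) hwl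
    have j2 : Integrable (fun x => ww (k * f x) * Real.log (1 + e)) μ := iw.mul_const _
    have j3 : Integrable (fun x => ww (k * f x) * Real.log (ww (k * f x)) -
        ww (k * f x) * Real.log (1 + e)) μ := j1.sub j2
    have j4 : Integrable (fun x => ww (k * f x) * Real.log (ww (k * f x)) -
        ww (k * f x) * Real.log (1 + e) - ww (k * f x)) μ := j3.sub iw
    rw [integral_add j4 (integrable_const _), integral_sub j3 iw, integral_sub j1 j2,
      integral_mul_const]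
    have h1 : ∫ x, ww (k * f x) ∂μ = 1 + e := by rw [he]; ring
    unfold Entropy
    simp only [exp_Th]
    rw [h1]
    simp
  have hA := abs_var hfc hc hQ hQ0
  have hPf := hP f hf hc
  -- the comparison
  have hcmp : ∫ x, ((|f x| / √Q) ^ 2 * Real.log ((|f x| / √Q) ^ 2) - (|f x| / √Q) ^ 2 + 1) ∂μ ≤
      M ^ 2 * Entropy μ (fun x => Real.exp (Th (k * f x))) +
        8 * (1 + Real.log M) * ∫ x, (|f x| / √Q - 1) ^ 2 ∂μ := by
    have hwl : Continuous fun s : ℝ => ww (k * s) * Real.log (ww (k * s)) :=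
      Real.continuous_mul_log.comp hwc
    have j1 : Integrable (fun x => ww (k * f x) * Real.log (ww (k * f x)) -
        ww (k * f x) * Real.log (1 + e) - ww (k * f x) + (1 + e)) μ :=
      int_comp hfc hc (φ := fun s => ww (k * s) * Real.log (ww (k * s)) -
        ww (k * s) * Real.log (1 + e) - ww (k * s) + (1 + e)) (by fun_prop)
    have j2 : Integrable (fun x => (|f x| / √Q - 1) ^ 2) μ :=
      int_comp hfc hc (φ := fun s => (|s| / √Q - 1) ^ 2) (by fun_prop)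
    have j3 : Integrable (fun x => (|f x| / √Q) ^ 2 * Real.log ((|f x| / √Q) ^ 2) -
        (|f x| / √Q) ^ 2 + 1) μ := by
      have c1 : Continuous fun s : ℝ => (|s| / √Q) ^ 2 := by fun_prop
      have c2 : Continuous fun s : ℝ => (|s| / √Q) ^ 2 * Real.log ((|s| / √Q) ^ 2) :=
        Real.continuous_mul_log.comp c1
      exact int_comp hfc hc (φ := fun s => (|s| / √Q) ^ 2 * Real.log ((|s| / √Q) ^ 2) -
        (|s| / √Q) ^ 2 + 1) ((c2.sub c1).add continuous_const)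
    have k1 : Integrable (fun x => M ^ 2 * (ww (k * f x) * Real.log (ww (k * f x)) -
        ww (k * f x) * Real.log (1 + e) - ww (k * f x) + (1 + e))) μ := j1.const_mul _
    have k2 : Integrable (fun x => 8 * (1 + Real.log M) * (|f x| / √Q - 1) ^ 2) μ :=
      j2.const_mul _
    rw [hEW, ← integral_const_mul, ← integral_const_mul, ← integral_add k1 k2]
    refine integral_mono j3 (k1.add k2) fun x => ?_
    have hw : ww (k * f x) = ww (|f x| / (M * √Q)) := by
      unfold ww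
      have : (k * f x) ^ 2 = (|f x| / (M * √Q)) ^ 2 := by
        rw [hk, div_pow, sq_abs, mul_pow, div_pow]; ring
      rw [this]
    have h1 := ptw (M := M) (e := e) (r := |f x| / √Q) (y := |f x| / (M * √Q)) hM he0 he1
      (by positivity) (by field_simp)
    show (|f x| / √Q) ^ 2 * Real.log ((|f x| / √Q) ^ 2) - (|f x| / √Q) ^ 2 + 1 ≤
      M ^ 2 * (ww (k * f x) * Real.log (ww (k * f x)) - ww (k * f x) * Real.log (1 + e) -
        ww (k * f x) + (1 + e)) + 8 * (1 + Real.log M) * (|f x| / √Q - 1) ^ 2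
    rw [hw]
    exact h1
  rw [ent_norm hfc hc hQ hQ0]
  obtain ⟨I, hIdef⟩ : ∃ I, I = ∫ x, ‖gradient f x‖ ^ 2 ∂μ := ⟨_, rfl⟩
  rw [← hIdef] at hPf hT hI ⊢
  have h1 := mul_le_mul_of_nonneg_left hcmp hQ0.le
  have h2 : Q * (M ^ 2 * Entropy μ (fun x => Real.exp (Th (k * f x)))) ≤ 5 * κ * B * I := by
    have h3 := mul_le_mul_of_nonneg_left hT (show 0 ≤ Q * M ^ 2 by positivity)
    have h4 : Q * M ^ 2 * (5 * κ * (B * k ^ 2 * I)) = 5 * κ * B * I * (M ^ 2 * Q * k ^ 2) := by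
      ring
    rw [h4, hkMQ] at h3
    linarith
  have h5 : Q * (8 * (1 + Real.log M) * ∫ x, (|f x| / √Q - 1) ^ 2 ∂μ) ≤
      8 * (1 + Real.log M) * (2 * (κ * I)) := by
    have h6 : Q * ∫ x, (|f x| / √Q - 1) ^ 2 ∂μ ≤ 2 * (κ * I) := by linarith
    have h7 := mul_le_mul_of_nonneg_left h6 (show 0 ≤ 8 * (1 + Real.log M) by positivity)
    linarith
  have h8 : 0 ≤ κ * I := mul_nonneg hκ.le hI
  have h9 : 5 * κ * B * I ≤ 5 * B * (1 + Real.log M) * (κ * I) := by
    have h10 : 0 ≤ B * Real.log M * (κ * I) :=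
      mul_nonneg (mul_nonneg (by linarith) hL) h8
    linarith
  have h11 : 8 * (1 + Real.log M) * (2 * (κ * I)) ≤ 16 * B * (1 + Real.log M) * (κ * I) := by
    have h12 : (1 + Real.log M) * (κ * I) ≤ B * ((1 + Real.log M) * (κ * I)) := by
      have h13 : 0 ≤ (1 + Real.log M) * (κ * I) := mul_nonneg (by linarith) h8
      nlinarith
    linarith
  have h14 : 21 * B * (1 + Real.log M) * κ * I = 5 * B * (1 + Real.log M) * (κ * I) +
      16 * B * (1 + Real.log M) * (κ * I) := by ring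
  rw [h14]
  linarith

end Vale.Agent.P245.H887
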