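import Vale.Agent.P245.H887.BL

/-!
P245 (helper887): the smooth truncated logarithm and the pointwise comparison of entropies.
-/

open MeasureTheory Filter Topology
open scoped ContDiff

namespace Vale.Agent.P245.H887

noncomputable def ww (y : ℝ) : ℝ := 1 + y ^ 2 * Real.smoothTransition (y ^ 2 - 1)

noncomputable def Th (y : ℝ) : ℝ := Real.log (ww y)

theorem one_le_ww (y : ℝ) : 1 ≤ ww y := by
  unfold ww
  have := mul_nonneg (sq_nonneg y) (Real.smoothTransition.nonneg (y ^ 2 - 1))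
  linarith

theorem ww_pos (y : ℝ) : 0 < ww y := lt_of_lt_of_le one_pos (one_le_ww y)

theorem ww_le (y : ℝ) : ww y ≤ 1 + y ^ 2 := by
  unfold ww
  have := mul_le_mul_of_nonneg_left (Real.smoothTransition.le_one (y ^ 2 - 1)) (sq_nonneg y)
  linarith

theorem ww_cd : ContDiff ℝ ∞ ww := by
  unfold ww
  have h1 : ContDiff ℝ ∞ fun y : ℝ => y ^ 2 - 1 := by fun_prop
  have h2 : ContDiff ℝ ∞ fun y : ℝ => Real.smoothTransition (y ^ 2 - 1) :=
    Real.smoothTransition.contDiff.comp h1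
  have h3 : ContDiff ℝ ∞ fun y : ℝ => y ^ 2 := by fun_prop
  exact contDiff_const.add (h3.mul h2)

theorem Th_cd : ContDiff ℝ ∞ Th := ww_cd.log fun y => (ww_pos y).ne'

theorem exp_Th (y : ℝ) : Real.exp (Th y) = ww y := Real.exp_log (ww_pos y)

theorem Th_nonneg (y : ℝ) : 0 ≤ Th y := Real.log_nonneg (one_le_ww y)

theorem Th_small {y : ℝ} (hy : y ^ 2 ≤ 1) : Th y = 0 := by
  unfold Th ww
  rw [Real.smoothTransition.zero_of_nonpos (by linarith)]
  simp

theorem ww_big {y : ℝ} (hy : 2 ≤ y ^ 2) : ww y = 1 + y ^ 2 := by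
  unfold ww
  rw [Real.smoothTransition.one_of_one_le (by linarith)]
  ring

theorem deriv_small {y : ℝ} (hy : y ^ 2 ≤ 1) : deriv Th y = 0 := by
  have h : IsLocalMin Th y := Eventually.of_forall fun z => by
    rw [Th_small hy]; exact Th_nonneg z
  exact h.deriv_eq_zero

theorem deriv_big {y : ℝ} (hy : 2 < y ^ 2) : deriv Th y = 2 * y / (1 + y ^ 2) := by
  have h1 : Th =ᶠ[𝓝 y] fun z => Real.log (1 + z ^ 2) := by
    have h2 : ∀ᶠ z in 𝓝 y, 2 < z ^ 2 := by
      have : ContinuousAt (fun z : ℝ => z ^ 2) y := by fun_prop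
      exact this.eventually (lt_mem_nhds hy)
    filter_upwards [h2] with z hz
    unfold Th
    rw [ww_big hz.le]
  rw [h1.deriv_eq]
  have h3 : HasDerivAt (fun z : ℝ => 1 + z ^ 2) (2 * y) y := by
    have := (hasDerivAt_pow 2 y).const_add 1
    simpa using this
  have h4 := h3.log (by positivity)
  exact h4.deriv

theorem bound : ∃ B : ℝ, 1 ≤ B ∧ ∀ y : ℝ, (deriv Th y) ^ 2 * y ^ 2 ≤ B ∧
    Real.exp (Th y) * (deriv Th y) ^ 2 ≤ B := by
  have hd : Continuous (deriv Th) := Th_cd.continuous_deriv (by simp)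
  have hc : Continuous Th := Th_cd.continuous
  obtain ⟨B1, hB1⟩ := (isCompact_Icc (a := (-2:ℝ)) (b := 2)).exists_bound_of_continuousOn
    (f := fun y => (deriv Th y) ^ 2 * y ^ 2) (by fun_prop)
  obtain ⟨B2, hB2⟩ := (isCompact_Icc (a := (-2:ℝ)) (b := 2)).exists_bound_of_continuousOn
    (f := fun y => Real.exp (Th y) * (deriv Th y) ^ 2) (by fun_prop)
  refine ⟨max (max B1 B2) 4, le_max_of_le_right (by norm_num), fun y => ?_⟩
  by_cases hy : |y| ≤ 2
  · have h1 := hB1 y (abs_le.mp hy)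
    have h2 := hB2 y (abs_le.mp hy)
    rw [Real.norm_eq_abs] at h1 h2
    exact ⟨(le_abs_self _).trans (h1.trans ((le_max_left _ _).trans (le_max_left _ _))),
      (le_abs_self _).trans (h2.trans ((le_max_right _ _).trans (le_max_left _ _)))⟩
  · have hy2 : 4 < y ^ 2 := by
      have h1 : 2 < |y| := not_le.mp hy
      have h2 : |y| ^ 2 = y ^ 2 := sq_abs y
      nlinarith
    have hp : 0 < 1 + y ^ 2 := by positivity
    have e1 : (2 * y / (1 + y ^ 2)) ^ 2 * y ^ 2 ≤ 4 := by
      have : (2 * y / (1 + y ^ 2)) ^ 2 * y ^ 2 = 4 * (y ^ 2 / (1 + y ^ 2)) ^ 2 := by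
        field_simp; ring
      rw [this]
      have h1 : y ^ 2 / (1 + y ^ 2) ≤ 1 := by rw [div_le_one hp]; linarith
      have h2 : 0 ≤ y ^ 2 / (1 + y ^ 2) := by positivity
      nlinarith
    have e2 : (1 + y ^ 2) * (2 * y / (1 + y ^ 2)) ^ 2 ≤ 4 := by
      have : (1 + y ^ 2) * (2 * y / (1 + y ^ 2)) ^ 2 = 4 * (y ^ 2 / (1 + y ^ 2)) := by
        field_simp; ring
      rw [this]
      have h1 : y ^ 2 / (1 + y ^ 2) ≤ 1 := by rw [div_le_one hp]; linarith
      linarith
    rw [exp_Th, ww_big (by linarith), deriv_big (by linarith)]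
    exact ⟨e1.trans (le_max_right _ _), e2.trans (le_max_right _ _)⟩

/-- the pointwise comparison -/
theorem ptw {M e r y : ℝ} (hM : 1 ≤ M) (he0 : 0 ≤ e) (he1 : e ≤ 1) (hr : 0 ≤ r) (hy : r = M * y) :
    r ^ 2 * Real.log (r ^ 2) - r ^ 2 + 1 ≤
      M ^ 2 * (ww y * Real.log (ww y) - ww y * Real.log (1 + e) - ww y + (1 + e)) +
        8 * (1 + Real.log M) * (r - 1) ^ 2 := by
  have hL : 0 ≤ Real.log M := Real.log_nonneg hM
  have hM0 : 0 < M := by linarith
  have hy0 : 0 ≤ y := by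
    by_contra h
    have : M * y < 0 := mul_neg_of_pos_of_neg hM0 (not_le.mp h)
    linarith
  have hbr : 0 ≤ ww y * Real.log (ww y) - ww y * Real.log (1 + e) - ww y + (1 + e) := by
    have h1 : 0 < (1 + e) / ww y := div_pos (by linarith) (ww_pos y)
    have h2 := Real.log_le_sub_one_of_pos h1
    rw [Real.log_div (by linarith) (ww_pos y).ne'] at h2
    have h3 := mul_le_mul_of_nonneg_left h2 (ww_pos y).le
    have h4 : ww y * ((1 + e) / ww y - 1) = (1 + e) - ww y := by
      have := (ww_pos y).ne'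
      field_simp
    rw [h4] at h3
    linarith
  have hMbr : 0 ≤ M ^ 2 *
      (ww y * Real.log (ww y) - ww y * Real.log (1 + e) - ww y + (1 + e)) :=
    mul_nonneg (sq_nonneg M) hbr
  have hlog2 : Real.log (r ^ 2) = 2 * Real.log r := by rw [Real.log_pow]; push_cast; ring
  have hl2 := Real.log_two_lt_d9
  rcases lt_or_ge r 2 with hr2 | hr2
  · -- small `r`
    have h1 : r ^ 2 * Real.log (r ^ 2) ≤ 2 * r ^ 2 * (r - 1) := by
      rw [hlog2]
      rcases hr.eq_or_lt with h0 | h0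
      · rw [← h0]; simp
      · have h2 := Real.log_le_sub_one_of_pos h0
        have h3 := mul_le_mul_of_nonneg_left h2 (show 0 ≤ 2 * r ^ 2 by positivity)
        linarith
    have h2 : 2 * r ^ 2 * (r - 1) - r ^ 2 + 1 = (r - 1) ^ 2 * (2 * r + 1) := by ring
    have h3 : (r - 1) ^ 2 * (2 * r + 1) ≤ (r - 1) ^ 2 * 5 :=
      mul_le_mul_of_nonneg_left (by linarith) (sq_nonneg _)
    have h4 : 0 ≤ Real.log M * (r - 1) ^ 2 := mul_nonneg hL (sq_nonneg _)
    have h5 : 0 ≤ (r - 1) ^ 2 := sq_nonneg _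
    nlinarith
  · have hr1 : 1 ≤ r ^ 2 := by nlinarith
    have hr4 : r ^ 2 ≤ 4 * (r - 1) ^ 2 := by nlinarith
    have hLr : Real.log M * r ^ 2 ≤ Real.log M * (4 * (r - 1) ^ 2) :=
      mul_le_mul_of_nonneg_left hr4 hL
    have hypos : 0 < y := by
      rcases hy0.eq_or_lt with h0 | h0
      · rw [← h0] at hy; simp at hy; linarith
      · exact h0
    have hlr : Real.log (r ^ 2) = 2 * Real.log M + Real.log (y ^ 2) := by
      rw [hlog2, hy, Real.log_mul hM0.ne' hypos.ne', Real.log_pow]; push_cast; ring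
    rcases lt_or_ge (y ^ 2) 4 with hy4 | hy4
    · -- `y` small
      have h1 : Real.log (y ^ 2) ≤ 2 := by
        have h2 : Real.log (y ^ 2) ≤ Real.log 4 := Real.log_le_log (by positivity) hy4.le
        have h3 : Real.log 4 = 2 * Real.log 2 := by
          rw [show (4:ℝ) = 2 ^ 2 by norm_num, Real.log_pow]; push_cast; ring
        linarith
      have h2 : r ^ 2 * Real.log (r ^ 2) ≤ r ^ 2 * (2 * Real.log M + 2) := by
        rw [hlr]; exact mul_le_mul_of_nonneg_left (by linarith) (sq_nonneg r)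
      nlinarith
    · -- `y` large
      rw [ww_big (by linarith)] at hMbr ⊢
      obtain ⟨Y, hY⟩ : ∃ Y, Y = y ^ 2 := ⟨_, rfl⟩
      rw [← hY] at hlr hy4 hMbr ⊢
      have hrY : r ^ 2 = M ^ 2 * Y := by rw [hy, hY]; ring
      have h1 : Y * (Real.log Y - Real.log 2 - 1) ≤
          (1 + Y) * Real.log (1 + Y) - (1 + Y) * Real.log (1 + e) - (1 + Y) + (1 + e) := by
        have q1 : Real.log Y ≤ Real.log (1 + Y) := Real.log_le_log (by linarith) (by linarith)
        have q2 : Real.log (1 + e) ≤ Real.log 2 := Real.log_le_log (by linarith) (by linarith)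
        have q3 : Real.log 2 ≤ Real.log Y := Real.log_le_log (by linarith) (by linarith)
        have q4 : Y * (Real.log Y - Real.log 2) ≤ (1 + Y) * (Real.log (1 + Y) - Real.log (1 + e)) :=
          mul_le_mul (by linarith) (by linarith) (by linarith) (by linarith)
        nlinarith
      have h2 := mul_le_mul_of_nonneg_left h1 (sq_nonneg M)
      have h3 : M ^ 2 * (Y * (Real.log Y - Real.log 2 - 1)) =
          r ^ 2 * Real.log Y - r ^ 2 * (Real.log 2 + 1) := by rw [hrY]; ring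
      rw [h3] at h2
      rw [hlr]
      have h4 : r ^ 2 * (Real.log 2 + 1) ≤ r ^ 2 * 2 :=
        mul_le_mul_of_nonneg_left (by linarith) (sq_nonneg r)
      nlinarith

end Vale.Agent.P245.H887
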